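import Vale.Agent.Lib.P181.Omni.PlethysmCoeff
import Vale.Agent.Lib.P181.FHMain
import Vale.Agent.Lib.P181.FHGeneral

/-!
Foulkes' conjecture: three results in one statement.

1. The generalized Foulkes inequality in the stable range: `V = K^(n+1)` over a field `K` of
   characteristic zero, `a * b = c * d`, `1 ≤ a ≤ min c d`; for a weight `lam` with at most
   `max c d` boxes outside its first part, the space of highest weight vectors of weight `lam`
   in `Sym^a (Sym^b V)` has dimension at most that of the corresponding space in
   `Sym^c (Sym^d V)`.  For `c = b` and `d = a`, `a ≤ b`, this is Foulkes' multiplicity inequality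
   for all partitions with at most `b` boxes outside the first row.
2. The Foulkes-Howe map is injective on the span of the monomial basis vectors of
   `Sym^a (Sym^b V)` in which one fixed basis vector `z` of `V` occurs at least `a * b - b`
   times: the images of pairwise distinct such basis vectors are linearly independent.
3. For `a ≤ b`, every monomial with at most one exponent exceeding one has coefficient in
   `h_a[h_b]` at most its coefficient in `h_b[h_a]`.
-/

namespace Vale.Agent.Results.P181.FoulkesStableOmnibus

open Vale.Agent.Lib.P181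

theorem result :
    (∀ (K : Type*) [Field K] [CharZero K] (n a b c d : ℕ), 1 ≤ a → a * b = c * d → a ≤ c →
      a ≤ d → ∀ lam : Fin (n + 1) → ℕ,
        ∑ x ∈ Finset.univ.erase (0 : Fin (n + 1)), lam x ≤ max c d →
          Module.finrank K (hwSpace K (n + 1) a b lam) ≤
            Module.finrank K (hwSpace K (n + 1) c d lam)) ∧
    (∀ (K : Type*) [Field K] [CharZero K] (σ : Type*) [Fintype σ] [DecidableEq σ]
      (a b : ℕ) (z : σ) (ι : Type*) (f : ι → Fin a → Fin b → σ),
        (Function.Injective fun i => rowMonomial (f i)) →
        (∀ i, (Finset.univ.filter fun p : Fin a × Fin b => f i p.1 p.2 ≠ z).card ≤ b) →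
          LinearIndependent K fun i => foulkesHowe K (f i)) ∧
    (∀ (σ : Type*) [Fintype σ] [DecidableEq σ] (a b : ℕ), a ≤ b →
      ∀ (μ : σ →₀ ℕ) (z : σ), (∀ i, i ≠ z → μ i ≤ 1) →
        MvPolynomial.coeff μ (hPleth σ a b) ≤ MvPolynomial.coeff μ (hPleth σ b a)) := by
  refine ⟨?_, ?_, ?_⟩
  · intro K _ _ n a b c d ha hab hac had lam hlam
    exact hwSpace_finrank_le_general n a b c d ha hab hac had lam hlam
  · intro K _ _ σ _ _ a b z ι f hinj hst
    exact foulkesHowe_linearIndependent f hinj hst
  · intro σ _ _ a b hab μ z hμ
    rw [Omni.coeff_hPleth_hook a b μ z hμ, Omni.coeff_hPleth_hook b a μ z hμ, mul_comm b a]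
    split_ifs with h
    · exact_mod_cast Omni.cnt_le a b _ hab
    · exact le_refl _

end Vale.Agent.Results.P181.FoulkesStableOmnibus
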