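import Vale.Agent.Lib.P181.FHMain

/-!
Stable injectivity of the Foulkes-Howe map.

`V` has a finite basis indexed by `σ`, over a field `K` of characteristic zero.  The monomial
basis vectors of `Sym^a (Sym^b V)` are presented by `a × b` arrays `f` of basis indices (the rows
are the `a` monomials of degree `b`).  If the arrays `f i` present pairwise distinct monomial
basis vectors, and in each of them at most `b` of the `a * b` entries differ from the fixed index
`z`, then the images of these basis vectors under the Foulkes-Howe map `Ψ_{a,b,V}` are linearly
independent in `Sym^b (Sym^a V)`: the map is injective on the span of all weight spaces in which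
the basis vector `z` has multiplicity at least `a * b - b`.
-/

namespace Vale.Agent.Results.P181.StableFoulkesHowe

open Vale.Agent.Lib.P181

theorem result (K : Type*) [Field K] [CharZero K] (σ : Type*) [Fintype σ] [DecidableEq σ]
    (a b : ℕ) (z : σ) (ι : Type*) (f : ι → Fin a → Fin b → σ)
    (hinj : Function.Injective fun i => rowMonomial (f i))
    (hst : ∀ i, (Finset.univ.filter fun p : Fin a × Fin b => f i p.1 p.2 ≠ z).card ≤ b) :
    LinearIndependent K fun i => foulkesHowe K (f i) :=
  foulkesHowe_linearIndependent f hinj hst

end Vale.Agent.Results.P181.StableFoulkesHowe
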