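import Vale.Agent.Lib.P181.FHGeneral

/-!
The generalized (strengthened) Foulkes inequality in the stable range.

`V = K^(n+1)` over a field `K` of characteristic zero, `a * b = c * d` and `1 ≤ a ≤ min c d`.
For a weight `lam` with at most `max c d` boxes outside its first part, the space of highest
weight vectors of weight `lam` in `Sym^a (Sym^b V)` has dimension at most that of the space of
highest weight vectors of weight `lam` in `Sym^c (Sym^d V)`.  The case `(c, d) = (b, a)`, `a ≤ b`,
is Foulkes' multiplicity inequality for all partitions with at most `b` boxes outside the first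
row.
-/

namespace Vale.Agent.Results.P181.StableGeneralized

open Vale.Agent.Lib.P181

theorem result (K : Type*) [Field K] [CharZero K] (n a b c d : ℕ) (ha : 1 ≤ a)
    (hab : a * b = c * d) (hac : a ≤ c) (had : a ≤ d) (lam : Fin (n + 1) → ℕ)
    (hlam : ∑ x ∈ Finset.univ.erase (0 : Fin (n + 1)), lam x ≤ max c d) :
    Module.finrank K (hwSpace K (n + 1) a b lam) ≤
      Module.finrank K (hwSpace K (n + 1) c d lam) :=
  hwSpace_finrank_le_general n a b c d ha hab hac had lam hlam

end Vale.Agent.Results.P181.StableGeneralized
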