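import Vale.Agent.Lib.P181.FHPsi

/-!
Foulkes' multiplicity inequality in the stable range.

`V = K^n` over a field `K` of characteristic zero.  For a weight `lam` in which all but at most
`b` of the boxes lie in a single part `z` (for a partition: at most `b` boxes outside the first
row), the space of highest weight vectors of weight `lam` in `Sym^a (Sym^b V)` has dimension at
most that of the space of highest weight vectors of weight `lam` in `Sym^b (Sym^a V)`; these
dimensions are the multiplicities of the Schur module of `lam` in the two representations.
-/

namespace Vale.Agent.Results.P181.StableMultiplicity

open Vale.Agent.Lib.P181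

theorem result (K : Type*) [Field K] [CharZero K] (n a b : ℕ) (lam : Fin n → ℕ) (z : Fin n)
    (hlam : ∑ x ∈ Finset.univ.erase z, lam x ≤ b) :
    Module.finrank K (hwSpace K n a b lam) ≤ Module.finrank K (hwSpace K n b a lam) :=
  hwSpace_finrank_le n a b lam z hlam

end Vale.Agent.Results.P181.StableMultiplicity
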